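import Vale.Agent.P076.R2.H64.Defs

/-!
# P076, thin sets of times: the regularised values are bounded by an integral over the parameter
-/

open MeasureTheory Complex FourierTransform Filter Topology Set
open scoped ENNReal NNReal

namespace Vale.Agent.P076.R2.H570

open Vale.Agent.P076 Vale.Agent.P076.H791 Vale.Agent.P076.R2.H64

variable {n : ℕ}

/-- shell data are integrable -/
theorem shell_integrable {R : ℝ} {G : E n → ℂ} (hG : Shell R G) : Integrable G := by
  have h2 : MemLp G 2 := by
    refine ⟨hG.meas.aestronglyMeasurable, ?_⟩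
    rw [eLpNorm_lt_top_iff_lintegral_rpow_enorm_lt_top two_ne_zero ENNReal.ofNat_ne_top]
    have h := hG.l2
    simpa using lt_top_iff_ne_top.2 h
  have hf : IsFiniteMeasure ((volume : Measure (E n)).restrict (Metric.closedBall 0 (2 * R))) :=
    ⟨by simpa using measure_closedBall_lt_top⟩
  have h1 : IntegrableOn G (Metric.closedBall (0 : E n) (2 * R)) :=
    (h2.restrict _).integrable one_le_two
  refine (integrableOn_iff_integrable_of_support_subset fun η hη => ?_).1 h1
  simpa using (hG.supp η hη).2

/-- modulus of the exponential factor -/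
theorem norm_e (r b : ℝ) : ‖cexp (2 * Real.pi * I * (r : ℂ) - (b : ℂ))‖ = Real.exp (-b) := by
  rw [Complex.norm_exp]
  congr 1
  simp

/-- the one-dimensional integral -/
theorem int_exp {c : ℝ} (hc : 0 < c) (a : ℝ) :
    ∫ t in Ioi a, c * Real.exp (-(t * c)) = Real.exp (-(a * c)) := by
  have h := integral_exp_mul_Ioi (a := -c) (by linarith) a
  have e : (fun t : ℝ => c * Real.exp (-(t * c))) = fun t => c * Real.exp (-c * t) := by
    funext t
    ring_nf
  rw [e, integral_const_mul, h]
  have : (-c * a) = -(a * c) := by ring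
  rw [this]
  field_simp

/-- integrability in the parameter -/
theorem intOn_exp {c : ℝ} (hc : 0 < c) (a : ℝ) :
    IntegrableOn (fun t : ℝ => c * Real.exp (-(t * c))) (Ioi a) := by
  have h := (integrableOn_exp_mul_Ioi (a := -c) (by linarith) a).const_mul c
  refine h.congr (Filter.Eventually.of_forall fun t => ?_)
  change c * Real.exp (-c * t) = c * Real.exp (-(t * c))
  ring_nf

/-- ROW A -/
theorem sup_a {R : ℝ} (hR : 0 < R) {G : E n → ℂ} (hG : Shell R G) (x : E n) (s : ℝ) {a : ℝ}
    (ha : 0 ≤ a) :
    ‖evo G x s a‖ₑ ≤ ∫⁻ a' in Ioi (0 : ℝ), ‖evo (Ga a' G) x s 0‖ₑ := by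
  classical
  set F : E n → ℝ → ℂ := fun η t =>
    cexp (2 * Real.pi * I * ((inner ℝ x η - s * ‖η‖ ^ 2 : ℝ) : ℂ) - ((0 * ‖η‖ ^ 2 : ℝ) : ℂ)) *
      (((‖η‖ ^ 2 * Real.exp (-(t * ‖η‖ ^ 2)) : ℝ) : ℂ) * G η) with hF
  have hGm := hG.meas
  have hpos : ∀ η, G η ≠ 0 → 0 < ‖η‖ ^ 2 := fun η hη => by
    have := (hG.supp η hη).1
    have : 0 < ‖η‖ := lt_of_lt_of_le hR this
    positivity
  have hnorm : ∀ η t, ‖F η t‖ = ‖η‖ ^ 2 * Real.exp (-(t * ‖η‖ ^ 2)) * ‖G η‖ := by
    intro η t
    rw [hF]
    simp only
    rw [norm_mul, norm_e, norm_mul, Complex.norm_real, Real.norm_of_nonneg (by positivity)]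
    simp
  have hslice : ∀ η, ∫ t in Ioi a, F η t =
      cexp (2 * Real.pi * I * ((inner ℝ x η - s * ‖η‖ ^ 2 : ℝ) : ℂ) - (a * ‖η‖ ^ 2 : ℝ)) * G η := by
    intro η
    by_cases hη : G η = 0
    · simp [hF, hη]
    · have hc := hpos η hη
      rw [hF]
      simp only
      have h0 : ∫ t in Ioi a, ((‖η‖ ^ 2 * Real.exp (-(t * ‖η‖ ^ 2)) : ℝ) : ℂ) =
          ((∫ t in Ioi a, ‖η‖ ^ 2 * Real.exp (-(t * ‖η‖ ^ 2)) : ℝ) : ℂ) := integral_ofReal
      rw [integral_const_mul, integral_mul_const, h0, int_exp hc a, ← mul_assoc]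
      congr 1
      rw [Complex.ofReal_exp, ← Complex.exp_add]
      congr 1
      push_cast
      ring
  have hInt : Integrable (Function.uncurry F)
      ((volume : Measure (E n)).prod ((volume : Measure ℝ).restrict (Ioi a))) := by
    have hm : Measurable (Function.uncurry F) := by
      rw [hF]
      unfold Function.uncurry
      fun_prop
    rw [integrable_prod_iff hm.aestronglyMeasurable]
    constructor
    · refine Filter.Eventually.of_forall fun η => ?_
      by_cases hη : G η = 0
      · have : (fun t => Function.uncurry F (η, t)) = fun _ => 0 := by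
          funext t
          simp [hF, hη]
        rw [this]
        exact integrable_zero _ _ _
      · have hc := hpos η hη
        refine Integrable.mono' ((intOn_exp hc a).mul_const ‖G η‖)
          (hm.comp measurable_prodMk_left).aestronglyMeasurable
          (Filter.Eventually.of_forall fun t => ?_)
        change ‖F η t‖ ≤ _
        rw [hnorm]
    · have hi := (shell_integrable hG).norm
      refine Integrable.mono' hi ?_ (Filter.Eventually.of_forall fun η => ?_)
      · have hsm : StronglyMeasurable (fun z : E n × ℝ => ‖Function.uncurry F z‖) :=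
          hm.norm.stronglyMeasurable
        exact (hsm.integral_prod_right' (ν := (volume : Measure ℝ).restrict (Ioi a))).aestronglyMeasurable
      · change ‖∫ t in Ioi a, ‖F η t‖‖ ≤ ‖G η‖
        have e : ∀ t, ‖F η t‖ = ‖η‖ ^ 2 * Real.exp (-(t * ‖η‖ ^ 2)) * ‖G η‖ := hnorm η
        simp only [e]
        rw [integral_mul_const]
        by_cases hη : G η = 0
        · simp [hη]
        · have hc := hpos η hη
          rw [int_exp hc a, norm_mul, norm_norm, Real.norm_of_nonneg (Real.exp_pos _).le]
          have : Real.exp (-(a * ‖η‖ ^ 2)) ≤ 1 := by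
            rw [Real.exp_le_one_iff]
            have : 0 ≤ a * ‖η‖ ^ 2 := by positivity
            linarith
          exact mul_le_of_le_one_left (norm_nonneg _) this
  have hswap : evo G x s a = ∫ t in Ioi a, evo (Ga t G) x s 0 := by
    have h1 : evo G x s a = ∫ η, ∫ t in Ioi a, F η t := by
      unfold evo
      exact integral_congr_ae (Filter.Eventually.of_forall fun η => (hslice η).symm)
    rw [h1, integral_integral_swap hInt]
    rfl
  rw [hswap]
  refine (enorm_integral_le_lintegral_enorm _).trans ?_
  exact lintegral_mono_set (Ioi_subset_Ioi ha)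

end Vale.Agent.P076.R2.H570
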